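import Vale.Agent.P098.Conn
import Vale.Agent.P098.Flat
import Vale.Agent.P098.Min

namespace Vale.Agent.Results.P098.ZeroPhase

open MeasureTheory Set Vale.Agent.P098
open scoped RealInnerProductSpace

theorem result (d : ℕ) (h3 : 3 ≤ d) (h6 : d ≤ 6) (u : V d → ℝ) (G : V d → V d) (U : V d → ℝ)
    (hm : IsMin u G) (hh : Homog u) (hU : SmoothFB u U) :
    IsPreconnected (Zp U) ∧
    (∀ e : V d, ‖e‖ = 1 → ∀ x₀ ∈ Zp U, connectedComponentIn (Zp U) x₀ ⊆ {x | ⟪x, e⟫ ≤ 0} →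
      ∀ᵐ x, u x = max ⟪x, e⟫ 0) ∧
    (∀ x₀ ∈ Zp U, Convex ℝ (insert 0 (connectedComponentIn (Zp U) x₀)) → ¬ (∀ᵐ x, u x = 0) →
      ∃ e : V d, ‖e‖ = 1 ∧ ∀ᵐ x, u x = max ⟪x, e⟫ 0) := by
  have hd : 0 < d := by omega
  have hc := cone_of hd hm hh hU
  have h1 := conn h3 h6 hc (stab_of hd hm hh hU)
  have : Nonempty (Fin d) := ⟨⟨0, hd⟩⟩
  have h0 : ∀ᵐ x : V d, x ≠ 0 := by
    rw [ae_iff]
    simp
  have h2 : ∀ e : V d, ‖e‖ = 1 → Zp U ⊆ {x | ⟪x, e⟫ ≤ 0} → ∀ᵐ x, u x = max ⟪x, e⟫ 0 := by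
    intro e he hZ
    filter_upwards [h0, hU.2.2] with x hx hu
    rw [hu, flat (by omega) hc he hZ hx]
  refine ⟨h1, fun e he x₀ hx₀ hs => h2 e he (by rwa [h1.connectedComponentIn hx₀] at hs),
    fun x₀ hx₀ hs hu => ?_⟩
  rw [h1.connectedComponentIn hx₀] at hs
  have h4 : (Om U).Nonempty := by
    by_contra hn
    refine hu ?_
    filter_upwards [h0, hU.2.2] with x hx hux
    rw [hux]
    exact max_eq_right (not_lt.1 fun h => hn ⟨x, hx, h⟩)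
  obtain ⟨e, he, hZ⟩ := half_of_convex hc hs h4
  exact ⟨e, he, h2 e he hZ⟩

end Vale.Agent.Results.P098.ZeroPhase
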